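import Vale.Agent.Lib.P189.Upper

/-! P189: finite groups have fixed price: every essentially free measure-preserving action
of a finite group of order `n` on a standard probability space has cost `1 - 1/n`. -/

namespace Vale.Agent.Results.P189.FiniteGroups

open Vale.Agent.Lib.P189 MeasureTheory

/-- Let the finite group `Γ` act on a standard Borel space `X` with probability measure `μ`
by Borel maps that preserve `μ`, in such a way that every non-identity element fixes only a
null set of points. Then the cost of the action equals `1 - 1/|Γ|`. In particular all such
actions of `Γ` have the same cost. -/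
theorem result (Γ : Type*) [Group Γ] [Fintype Γ] (X : Type*) [MeasurableSpace X]
    [StandardBorelSpace X] [MulAction Γ X] (μ : Measure X) [IsProbabilityMeasure μ]
    (hmeas : ∀ g : Γ, Measurable (fun x : X => g • x))
    (hinv : ∀ g : Γ, ∀ s : Set X, MeasurableSet s → μ ((fun x => g • x) ⁻¹' s) = μ s)
    (hfree : ∀ g : Γ, g ≠ 1 → μ {x | g • x = x} = 0) :
    actionCost Γ μ = 1 - (Fintype.card Γ : ENNReal)⁻¹ :=
  actionCost_finite hmeas hinv hfree

end Vale.Agent.Results.P189.FiniteGroups
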